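import Mathlib
import Crest.Prelude.Def_ModularData

/-!
# S0112, package A5 (second track): Fourier representation of the bounded calculus

For a `LineCalculus` `D` on a Hilbert space `H`, an integrable `f : ℝ → ℂ` and the bounded
continuous function `F u = ∫ t, f t * exp (i t u)`:

  `D.apply F x = ∫ t, f t • D.wave t x`     (Bochner integral in `H`).

Route: `g ↦ g(D) y` is a continuous linear map on `C_b(ℝ, ℂ)` (a ⋆-homomorphism of C⋆-algebras is
contractive); for `χ` of compact support `t ↦ e_t * χ` is norm continuous in `C_b`; the Bochner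
integral `∫ f t • (e_t * χ)` in `C_b` is `F * χ` (point evaluations); finally the field `window`.

Imports: Mathlib and the frozen Prelude only.
-/

set_option autoImplicit false

namespace Crest.Agent.Helper81.S0112

open Crest.OpAlg MeasureTheory Filter Topology
open scoped BoundedContinuousFunction

variable {H : Type*} [NormedAddCommGroup H] [InnerProductSpace ℂ H] [CompleteSpace H]

/-! ### Characters -/

theorem character_apply (t u : ℝ) :
    LineCalculus.character t u = Complex.exp (Complex.I * ((t * u : ℝ) : ℂ)) := rfl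

theorem norm_character_apply (t u : ℝ) : ‖LineCalculus.character t u‖ = 1 := by
  rw [character_apply, Complex.norm_exp_I_mul_ofReal]

theorem norm_character_le (t : ℝ) : ‖LineCalculus.character t‖ ≤ 1 :=
  (BoundedContinuousFunction.norm_le zero_le_one).2 fun u => (norm_character_apply t u).le

theorem character_zero : LineCalculus.character 0 = 1 := by
  ext u
  simp [character_apply]

theorem character_add (s t : ℝ) :
    LineCalculus.character (s + t) = LineCalculus.character s * LineCalculus.character t := by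
  ext u
  simp only [character_apply, BoundedContinuousFunction.coe_mul, Pi.mul_apply]
  rw [← Complex.exp_add]
  congr 1
  push_cast
  ring

theorem norm_exp_sub_exp_le (a b : ℝ) :
    ‖Complex.exp (Complex.I * (a : ℂ)) - Complex.exp (Complex.I * (b : ℂ))‖ ≤ |a - b| := by
  have h1 : Complex.exp (Complex.I * (a : ℂ)) - Complex.exp (Complex.I * (b : ℂ)) =
      Complex.exp (Complex.I * (b : ℂ)) * (Complex.exp (Complex.I * ((a - b : ℝ) : ℂ)) - 1) := by
    rw [mul_sub, mul_one, ← Complex.exp_add]
    congr 2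
    push_cast
    ring
  rw [h1, norm_mul, Complex.norm_exp_I_mul_ofReal, one_mul]
  exact Real.norm_exp_I_mul_ofReal_sub_one_le

/-! ### A1: norm bounds, the wave group -/

theorem norm_apply_le (D : LineCalculus H) (f : ℝ →ᵇ ℂ) : ‖D.apply f‖ ≤ ‖f‖ :=
  NonUnitalStarAlgHom.norm_apply_le D.apply f

theorem norm_apply_apply_le (D : LineCalculus H) (f : ℝ →ᵇ ℂ) (x : H) :
    ‖D.apply f x‖ ≤ ‖f‖ * ‖x‖ :=
  ((D.apply f).le_opNorm x).trans
    (mul_le_mul_of_nonneg_right (norm_apply_le D f) (norm_nonneg x))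

theorem wave_zero (D : LineCalculus H) : D.wave 0 = 1 := by
  rw [LineCalculus.wave, character_zero, map_one]

theorem wave_add (D : LineCalculus H) (s t : ℝ) : D.wave (s + t) = D.wave s * D.wave t := by
  rw [LineCalculus.wave, character_add, map_mul]
  rfl

theorem norm_wave_apply_le (D : LineCalculus H) (t : ℝ) (x : H) : ‖D.wave t x‖ ≤ ‖x‖ := by
  have h := norm_apply_apply_le D (LineCalculus.character t) x
  have h2 : ‖LineCalculus.character t‖ * ‖x‖ ≤ 1 * ‖x‖ :=
    mul_le_mul_of_nonneg_right (norm_character_le t) (norm_nonneg x)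
  rw [one_mul] at h2
  exact h.trans h2

theorem wave_neg_wave (D : LineCalculus H) (t : ℝ) (x : H) : D.wave (-t) (D.wave t x) = x := by
  have h := wave_add D (-t) t
  rw [neg_add_cancel, wave_zero] at h
  calc D.wave (-t) (D.wave t x) = (D.wave (-t) * D.wave t) x := rfl
    _ = x := by rw [← h]; rfl

theorem norm_wave_apply (D : LineCalculus H) (t : ℝ) (x : H) : ‖D.wave t x‖ = ‖x‖ := by
  refine le_antisymm (norm_wave_apply_le D t x) ?_
  calc ‖x‖ = ‖D.wave (-t) (D.wave t x)‖ := by rw [wave_neg_wave]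
    _ ≤ ‖D.wave t x‖ := norm_wave_apply_le D (-t) _

/-- The continuous linear map `g ↦ g(D) y` on `C_b(ℝ, ℂ)`. -/
noncomputable def applyCLM (D : LineCalculus H) (y : H) : (ℝ →ᵇ ℂ) →L[ℂ] H :=
  LinearMap.mkContinuous
    { toFun := fun g => D.apply g y
      map_add' := fun g₁ g₂ => by rw [map_add]; rfl
      map_smul' := fun c g => by rw [map_smul]; rfl }
    ‖y‖ (fun g => by rw [mul_comm]; exact norm_apply_apply_le D g y)

@[simp] theorem applyCLM_apply (D : LineCalculus H) (y : H) (g : ℝ →ᵇ ℂ) :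
    applyCLM D y g = D.apply g y := rfl

/-! ### Norm continuity of `t ↦ e_t * χ` for `χ` of compact support -/

theorem exists_bound_of_hasCompactSupport (χ : ℝ →ᵇ ℂ) (hχ : HasCompactSupport (χ : ℝ → ℂ)) :
    ∃ R : ℝ, 0 ≤ R ∧ ∀ u, χ u ≠ 0 → |u| ≤ R := by
  obtain ⟨R, hR⟩ := hχ.isCompact.isBounded.exists_norm_le
  refine ⟨max R 0, le_max_right _ _, fun u hu => ?_⟩
  have hu' : u ∈ tsupport (χ : ℝ → ℂ) := subset_tsupport _ hu
  have := hR u hu'
  rw [Real.norm_eq_abs] at this
  exact this.trans (le_max_left _ _)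

theorem dist_character_mul_le (χ : ℝ →ᵇ ℂ) (R : ℝ) (hR : 0 ≤ R)
    (hsupp : ∀ u, χ u ≠ 0 → |u| ≤ R) (t t' : ℝ) :
    dist (LineCalculus.character t * χ) (LineCalculus.character t' * χ) ≤ R * ‖χ‖ * |t - t'| := by
  rw [BoundedContinuousFunction.dist_le (by positivity)]
  intro u
  rw [dist_eq_norm]
  simp only [BoundedContinuousFunction.coe_mul, Pi.mul_apply]
  rw [← sub_mul, norm_mul]
  by_cases hu : χ u = 0
  · rw [hu, norm_zero, mul_zero]; positivity
  · have h1 : ‖LineCalculus.character t u - LineCalculus.character t' u‖ ≤ |t * u - t' * u| := by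
      rw [character_apply, character_apply]; exact norm_exp_sub_exp_le _ _
    have h2 : |t * u - t' * u| ≤ R * |t - t'| := by
      rw [← sub_mul, abs_mul, mul_comm]
      exact mul_le_mul_of_nonneg_right (hsupp u hu) (abs_nonneg _)
    have h3 : ‖χ u‖ ≤ ‖χ‖ := χ.norm_coe_le_norm u
    calc ‖LineCalculus.character t u - LineCalculus.character t' u‖ * ‖χ u‖
        ≤ (R * |t - t'|) * ‖χ‖ := mul_le_mul (h1.trans h2) h3 (norm_nonneg _) (by positivity)
      _ = R * ‖χ‖ * |t - t'| := by ring

theorem continuous_character_mul (χ : ℝ →ᵇ ℂ) (hχ : HasCompactSupport (χ : ℝ → ℂ)) :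
    Continuous fun t : ℝ => LineCalculus.character t * χ := by
  obtain ⟨R, hR, hsupp⟩ := exists_bound_of_hasCompactSupport χ hχ
  have hL : LipschitzWith (Real.toNNReal (R * ‖χ‖))
      (fun t : ℝ => LineCalculus.character t * χ) := by
    refine LipschitzWith.of_dist_le_mul fun t t' => ?_
    rw [Real.coe_toNNReal _ (by positivity), Real.dist_eq]
    exact dist_character_mul_le χ R hR hsupp t t'
  exact hL.continuous

/-! ### A3: strong continuity of the wave group -/

theorem wave_apply_apply (D : LineCalculus H) (t : ℝ) (χ : ℝ →ᵇ ℂ) (y : H) :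
    D.wave t (D.apply χ y) = D.apply (LineCalculus.character t * χ) y := by
  rw [map_mul]; rfl

theorem continuous_wave_apply (D : LineCalculus H) (x : H) :
    Continuous fun t : ℝ => D.wave t x := by
  rw [Metric.continuous_iff]
  intro t ε hε
  obtain ⟨χ, hχ, hχx⟩ := D.window x (ε / 3) (by positivity)
  have hc : Continuous fun t : ℝ => D.wave t (D.apply χ x) := by
    have : (fun t : ℝ => D.wave t (D.apply χ x)) =
        fun t => applyCLM D x (LineCalculus.character t * χ) := by
      funext t; rw [wave_apply_apply]; rfl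
    rw [this]
    exact (applyCLM D x).continuous.comp (continuous_character_mul χ hχ)
  obtain ⟨δ, hδ, hδ'⟩ := Metric.continuous_iff.1 hc t (ε / 3) (by positivity)
  refine ⟨δ, hδ, fun t' ht' => ?_⟩
  have h1 : dist (D.wave t' x) (D.wave t' (D.apply χ x)) < ε / 3 := by
    rw [dist_eq_norm, ← map_sub]
    refine (norm_wave_apply_le D t' _).trans_lt ?_
    rw [← norm_neg, neg_sub]; exact hχx
  have h2 : dist (D.wave t (D.apply χ x)) (D.wave t x) < ε / 3 := by
    rw [dist_eq_norm, ← map_sub]
    exact (norm_wave_apply_le D t _).trans_lt hχx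
  have h3 := hδ' t' ht'
  calc dist (D.wave t' x) (D.wave t x)
      ≤ dist (D.wave t' x) (D.wave t' (D.apply χ x))
        + dist (D.wave t' (D.apply χ x)) (D.wave t (D.apply χ x))
        + dist (D.wave t (D.apply χ x)) (D.wave t x) := dist_triangle4 _ _ _ _
    _ < ε / 3 + ε / 3 + ε / 3 := by linarith
    _ = ε := by ring

theorem integrable_smul_wave (D : LineCalculus H) (f : ℝ → ℂ) (hf : Integrable f) (x : H) :
    Integrable fun t : ℝ => f t • D.wave t x := by
  refine Integrable.mono' (g := fun t => ‖f t‖ * ‖x‖) (hf.norm.mul_const _) ?_ ?_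
  · exact hf.aestronglyMeasurable.smul (continuous_wave_apply D x).aestronglyMeasurable
  · exact Filter.Eventually.of_forall fun t => by
      rw [norm_smul, norm_wave_apply]

/-! ### The Bochner integral in `C_b` -/

theorem integrable_smul_character_mul (f : ℝ → ℂ) (hf : Integrable f) (χ : ℝ →ᵇ ℂ)
    (hχ : HasCompactSupport (χ : ℝ → ℂ)) :
    Integrable fun t : ℝ => f t • (LineCalculus.character t * χ) := by
  refine Integrable.mono' (g := fun t => ‖f t‖ * ‖χ‖) (hf.norm.mul_const _) ?_ ?_
  · exact hf.aestronglyMeasurable.smul (continuous_character_mul χ hχ).aestronglyMeasurable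
  · exact Filter.Eventually.of_forall fun t => by
      rw [norm_smul]
      refine mul_le_mul_of_nonneg_left ?_ (norm_nonneg _)
      calc ‖LineCalculus.character t * χ‖ ≤ ‖LineCalculus.character t‖ * ‖χ‖ := norm_mul_le _ _
        _ ≤ 1 * ‖χ‖ := mul_le_mul_of_nonneg_right (norm_character_le t) (norm_nonneg _)
        _ = ‖χ‖ := one_mul _

theorem integral_smul_character_mul (f : ℝ → ℂ) (hf : Integrable f) (F : ℝ →ᵇ ℂ)
    (hF : ∀ u, F u = ∫ t, f t * Complex.exp (Complex.I * ((t * u : ℝ) : ℂ)))
    (χ : ℝ →ᵇ ℂ) (hχ : HasCompactSupport (χ : ℝ → ℂ)) :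
    ∫ t, f t • (LineCalculus.character t * χ) = F * χ := by
  ext u
  have h := ((BoundedContinuousFunction.evalCLM ℂ u).integral_comp_comm
    (integrable_smul_character_mul f hf χ hχ)).symm
  simp only [BoundedContinuousFunction.evalCLM_apply] at h
  rw [h]
  simp only [BoundedContinuousFunction.coe_smul, BoundedContinuousFunction.coe_mul,
    Pi.mul_apply, smul_eq_mul, character_apply]
  rw [hF u, ← integral_mul_const]
  congr 1
  funext t
  ring

/-! ### A5: the Fourier representation -/

theorem apply_apply_eq_integral (D : LineCalculus H) (f : ℝ → ℂ) (hf : Integrable f)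
    (F : ℝ →ᵇ ℂ) (hF : ∀ u, F u = ∫ t, f t * Complex.exp (Complex.I * ((t * u : ℝ) : ℂ)))
    (χ : ℝ →ᵇ ℂ) (hχ : HasCompactSupport (χ : ℝ → ℂ)) (y : H) :
    D.apply F (D.apply χ y) = ∫ t, f t • D.wave t (D.apply χ y) := by
  have h := ((applyCLM D y).integral_comp_comm (integrable_smul_character_mul f hf χ hχ)).symm
  rw [integral_smul_character_mul f hf F hF χ hχ] at h
  rw [applyCLM_apply, map_mul] at h
  calc D.apply F (D.apply χ y) = (D.apply F * D.apply χ) y := rfl
    _ = ∫ t, applyCLM D y (f t • (LineCalculus.character t * χ)) := h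
    _ = ∫ t, f t • D.wave t (D.apply χ y) := by
        congr 1
        funext t
        rw [map_smul, applyCLM_apply, wave_apply_apply]

/-- **A5.** If `F u = ∫ t, f t * exp (i t u)` for an integrable `f`, then
`F(D) x = ∫ t, f t • exp(itD) x`. -/
theorem apply_eq_integral_wave (D : LineCalculus H) (f : ℝ → ℂ) (hf : Integrable f)
    (F : ℝ →ᵇ ℂ) (hF : ∀ u, F u = ∫ t, f t * Complex.exp (Complex.I * ((t * u : ℝ) : ℂ)))
    (x : H) : D.apply F x = ∫ t, f t • D.wave t x := by
  have key : ∀ ε > 0, ‖D.apply F x - ∫ t, f t • D.wave t x‖ ≤ (‖F‖ + ∫ t, ‖f t‖) * ε := by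
    intro ε hε
    obtain ⟨χ, hχ, hχx⟩ := D.window x ε hε
    have e1 := apply_apply_eq_integral D f hf F hF χ hχ x
    have e2 : D.apply F x - ∫ t, f t • D.wave t x =
        D.apply F (x - D.apply χ x) - ∫ t, f t • D.wave t (x - D.apply χ x) := by
      have : (fun t => f t • D.wave t (x - D.apply χ x)) =
          fun t => f t • D.wave t x - f t • D.wave t (D.apply χ x) := by
        funext t; rw [map_sub, smul_sub]
      rw [this, integral_sub (integrable_smul_wave D f hf x) (integrable_smul_wave D f hf _),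
        map_sub, e1]
      abel
    rw [e2]
    have hn : ‖x - D.apply χ x‖ ≤ ε := by rw [← norm_neg, neg_sub]; exact hχx.le
    have b1 : ‖D.apply F (x - D.apply χ x)‖ ≤ ‖F‖ * ε :=
      (norm_apply_apply_le D F _).trans (mul_le_mul_of_nonneg_left hn (norm_nonneg _))
    have b2 : ‖∫ t, f t • D.wave t (x - D.apply χ x)‖ ≤ (∫ t, ‖f t‖) * ε := by
      calc ‖∫ t, f t • D.wave t (x - D.apply χ x)‖
          ≤ ∫ t, ‖f t • D.wave t (x - D.apply χ x)‖ := norm_integral_le_integral_norm _
        _ = ∫ t, ‖f t‖ * ‖x - D.apply χ x‖ := by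
            congr 1; funext t; rw [norm_smul, norm_wave_apply]
        _ = (∫ t, ‖f t‖) * ‖x - D.apply χ x‖ := integral_mul_const _ _
        _ ≤ (∫ t, ‖f t‖) * ε :=
            mul_le_mul_of_nonneg_left hn (integral_nonneg fun t => norm_nonneg _)
    calc ‖D.apply F (x - D.apply χ x) - ∫ t, f t • D.wave t (x - D.apply χ x)‖
        ≤ ‖D.apply F (x - D.apply χ x)‖ + ‖∫ t, f t • D.wave t (x - D.apply χ x)‖ :=
          norm_sub_le _ _
      _ ≤ ‖F‖ * ε + (∫ t, ‖f t‖) * ε := add_le_add b1 b2
      _ = (‖F‖ + ∫ t, ‖f t‖) * ε := by ring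
  have hC : 0 ≤ ‖F‖ + ∫ t, ‖f t‖ :=
    add_nonneg (norm_nonneg _) (integral_nonneg fun t => norm_nonneg _)
  have h0 : ‖D.apply F x - ∫ t, f t • D.wave t x‖ ≤ 0 := by
    refine le_of_forall_pos_le_add fun ε hε => ?_
    have hpos : 0 < ‖F‖ + (∫ t, ‖f t‖) + 1 := by linarith
    have h1 := key (ε / (‖F‖ + (∫ t, ‖f t‖) + 1)) (div_pos hε hpos)
    refine h1.trans ?_
    rw [zero_add, ← mul_div_assoc, div_le_iff₀ hpos]
    nlinarith
  exact sub_eq_zero.1 (norm_le_zero_iff.1 h0)

end Crest.Agent.Helper81.S0112
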